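import Vale.Agent.P331.H489.Ex

/-!
# Tensorisation of the quenched joint removal lemma

Labels in a finite type `L`, independent coordinates.  `KE κ φ ω` is the average of `φ` after the
coordinatewise kernel `κ` started at the configuration `ω`.  In the configuration `ω` one may
delete labels (map `d`) for free or keep them at the cost `c`.
-/

set_option autoImplicit false
set_option linter.unusedSectionVars false

namespace Vale.Agent.P331.H514

open Finset Vale.Agent.P331.H489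

section Kernel

variable {E L C : Type*} [Fintype E] [DecidableEq E] [Fintype L] [DecidableEq L]
  [Fintype C] [DecidableEq C]

/-- average of `φ` after the coordinatewise kernel `κ`, started at `ω` -/
def KE (κ : E → L → C → ℝ) (φ : (E → C) → ℝ) (ω : E → L) : ℝ := EX (fun e => κ e (ω e)) φ

theorem KE_mono {κ : E → L → C → ℝ} (hκ : ∀ e l l', 0 ≤ κ e l l') {φ ψ : (E → C) → ℝ}
    (h : ∀ ω, φ ω ≤ ψ ω) (ω : E → L) : KE κ φ ω ≤ KE κ ψ ω :=
  EX_mono (fun e l => hκ e _ l) h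

theorem KE_nonneg {κ : E → L → C → ℝ} (hκ : ∀ e l l', 0 ≤ κ e l l') {φ : (E → C) → ℝ}
    (h : ∀ ω, 0 ≤ φ ω) (ω : E → L) : 0 ≤ KE κ φ ω :=
  EX_nonneg (fun e l => hκ e _ l) h

theorem KE_add (κ : E → L → C → ℝ) (φ ψ : (E → C) → ℝ) (ω : E → L) :
    KE κ (fun τ => φ τ + ψ τ) ω = KE κ φ ω + KE κ ψ ω := EX_add _ _ _

theorem KE_mul (κ : E → L → C → ℝ) (a : ℝ) (φ : (E → C) → ℝ) (ω : E → L) :
    KE κ (fun τ => a * φ τ) ω = a * KE κ φ ω := EX_mul _ _ _

theorem KE_const {κ : E → L → C → ℝ} (hκ : ∀ e l, ∑ l', κ e l l' = 1) (a : ℝ) (ω : E → L) :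
    KE κ (fun _ => a) ω = a := EX_one _ (fun e => hκ e _) a

/-- composition of coordinatewise kernels -/
theorem EX_bind (w : E → L → ℝ) (κ : E → L → C → ℝ) (F : (E → C) → ℝ) :
    EX w (fun ω => KE κ F ω) = EX (fun e c => ∑ l, w e l * κ e l c) F := by
  unfold KE EX
  simp only [mul_sum]
  rw [sum_comm]
  refine sum_congr rfl fun τ _ => ?_
  have h : (∏ e, ∑ l, w e l * κ e l (τ e)) = ∑ ω : E → L, ∏ e, (w e (ω e) * κ e (ω e) (τ e)) := by
    rw [Finset.prod_univ_sum, Fintype.piFinset_univ]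
  rw [h, sum_mul]
  refine sum_congr rfl fun ω _ => ?_
  rw [prod_mul_distrib]
  ring

theorem KE_bind {D : Type*} [Fintype D] [DecidableEq D] (κ : E → L → C → ℝ)
    (κ' : E → C → D → ℝ) (F : (E → D) → ℝ) (ω : E → L) :
    KE κ (fun τ => KE κ' F τ) ω = KE (fun e l d => ∑ c, κ e l c * κ' e c d) F ω :=
  EX_bind _ _ _

/-- renaming the coordinates -/
theorem KE_reindex {E' : Type*} [Fintype E'] [DecidableEq E'] (σ : E ≃ E') (κ : E → L → C → ℝ)
    (φ : (E → C) → ℝ) (ω : E → L) :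
    KE κ φ ω = KE (fun e' => κ (σ.symm e')) (fun τ : E' → C => φ (τ ∘ σ)) (ω ∘ σ.symm) := by
  unfold KE
  rw [EX_reindex σ]
  rfl

end Kernel

section Tens

variable {L : Type*} [Fintype L] [DecidableEq L]

theorem KE_cons {n : ℕ} (κ : Fin (n + 1) → L → L → ℝ) (φ : (Fin (n + 1) → L) → ℝ)
    (ω : Fin (n + 1) → L) :
    KE κ φ ω = ∑ l', κ 0 (ω 0) l' *
      KE (fun i : Fin n => κ i.succ) (fun ρ => φ (Fin.cons l' ρ)) (Fin.tail ω) := by
  unfold KE
  rw [EX_cons]
  rfl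

/-- the recursive lower bound for the cheapest deletion -/
def Xi (c : L → ℝ) (d : L → L) : (n : ℕ) → (Fin n → L → L → ℝ) → ((Fin n → L) → ℝ) →
    (Fin n → L) → ℝ
  | 0, _, φ, ω => φ ω
  | n + 1, κ, φ, ω =>
    min (c (ω 0) * ∑ l', κ 0 (ω 0) l' *
        Xi c d n (fun i : Fin n => κ i.succ) (fun ρ => φ (Fin.cons l' ρ)) (Fin.tail ω))
      (∑ l', κ 0 (d (ω 0)) l' *
        Xi c d n (fun i : Fin n => κ i.succ) (fun ρ => φ (Fin.cons l' ρ)) (Fin.tail ω))

theorem Xi_mono {c : L → ℝ} {d : L → L} (hc : ∀ l, 0 < c l) : ∀ (n : ℕ)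
    (κ : Fin n → L → L → ℝ) (_ : ∀ e l l', 0 ≤ κ e l l') (φ ψ : (Fin n → L) → ℝ)
    (_ : ∀ ω, φ ω ≤ ψ ω) (ω : Fin n → L), Xi c d n κ φ ω ≤ Xi c d n κ ψ ω := by
  intro n
  induction n with
  | zero => intro κ _ φ ψ h ω; exact h ω
  | succ n ih =>
    intro κ hκ φ ψ h ω
    have h1 : ∀ l l', κ 0 l l' * Xi c d n (fun i : Fin n => κ i.succ)
        (fun ρ => φ (Fin.cons l' ρ)) (Fin.tail ω) ≤ κ 0 l l' *
        Xi c d n (fun i : Fin n => κ i.succ) (fun ρ => ψ (Fin.cons l' ρ)) (Fin.tail ω) :=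
      fun l l' => mul_le_mul_of_nonneg_left (ih _ (fun e => hκ e.succ) _ _
        (fun ρ => h _) _) (hκ 0 l l')
    simp only [Xi]
    refine min_le_min ?_ ?_
    · exact mul_le_mul_of_nonneg_left (sum_le_sum fun l' _ => h1 _ l') (hc _).le
    · exact sum_le_sum fun l' _ => h1 _ l'

theorem Xi_pos {c : L → ℝ} {d : L → L} (hc : ∀ l, 0 < c l) : ∀ (n : ℕ)
    (κ : Fin n → L → L → ℝ) (_ : ∀ e l l', 0 ≤ κ e l l') (_ : ∀ e l, ∑ l', κ e l l' = 1)
    (φ : (Fin n → L) → ℝ) (_ : ∀ ω, 0 < φ ω) (ω : Fin n → L), 0 < Xi c d n κ φ ω := by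
  intro n
  induction n with
  | zero => intro κ _ _ φ h ω; exact h ω
  | succ n ih =>
    intro κ hκ h1 φ h ω
    have hp : ∀ l, 0 < ∑ l', κ 0 l l' * Xi c d n (fun i : Fin n => κ i.succ)
        (fun ρ => φ (Fin.cons l' ρ)) (Fin.tail ω) := by
      intro l
      have hx : ∀ l', 0 < Xi c d n (fun i : Fin n => κ i.succ)
          (fun ρ => φ (Fin.cons l' ρ)) (Fin.tail ω) :=
        fun l' => ih _ (fun e => hκ e.succ) (fun e => h1 e.succ) _ (fun ρ => h _) _
      have : ∃ l' ∈ (univ : Finset L), 0 < κ 0 l l' := by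
        by_contra hcon
        push Not at hcon
        have h2 := h1 0 l
        rw [sum_eq_zero fun l' hl' => le_antisymm (hcon l' hl') (hκ 0 l l')] at h2
        exact zero_ne_one h2
      obtain ⟨l', hl', hpos⟩ := this
      exact sum_pos' (fun l' _ => mul_nonneg (hκ 0 l l') (hx l').le)
        ⟨l', hl', mul_pos hpos (hx l')⟩
    simp only [Xi]
    exact lt_min (mul_pos (hc _) (hp _)) (hp _)

/-- the recursive quantity is below every deletion -/
theorem Xi_le {c : L → ℝ} {d : L → L} (hc : ∀ l, 0 < c l) : ∀ (n : ℕ)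
    (κ : Fin n → L → L → ℝ) (_ : ∀ e l l', 0 ≤ κ e l l') (φ : (Fin n → L) → ℝ)
    (S : Finset (Fin n)) (ω : Fin n → L),
    Xi c d n κ φ ω ≤ (∏ e, if e ∈ S then c (ω e) else 1) *
      KE κ φ (fun e => if e ∈ S then ω e else d (ω e)) := by
  intro n
  induction n with
  | zero =>
    intro κ _ φ S ω
    have : (KE κ φ fun e => if e ∈ S then ω e else d (ω e)) = φ ω := by
      unfold KE EX
      rw [Fintype.sum_unique]
      simp only [Finset.univ_eq_empty, Finset.prod_empty, one_mul]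
      congr 1
      exact Subsingleton.elim _ _
    rw [this]
    simp [Xi]
  | succ n ih =>
    intro κ hκ φ S ω
    set S' : Finset (Fin n) := univ.filter fun i => i.succ ∈ S with hS'
    have hmem : ∀ i : Fin n, i ∈ S' ↔ i.succ ∈ S := fun i => by simp [hS']
    rw [KE_cons, Fin.prod_univ_succ]
    have htail : (Fin.tail fun e : Fin (n + 1) => if e ∈ S then ω e else d (ω e)) =
        fun e : Fin n => if e ∈ S' then Fin.tail ω e else d (Fin.tail ω e) := by
      funext i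
      simp only [Fin.tail, hmem]
    have hprod : (∏ i : Fin n, if i.succ ∈ S then c (ω i.succ) else 1) =
        ∏ i : Fin n, if i ∈ S' then c (Fin.tail ω i) else 1 := by
      refine prod_congr rfl fun i _ => ?_
      simp only [Fin.tail, hmem]
    rw [htail, hprod]
    set P : ℝ := ∏ i : Fin n, if i ∈ S' then c (Fin.tail ω i) else 1 with hP
    have h1 : ∀ l, ∑ l', κ 0 l l' * Xi c d n (fun i : Fin n => κ i.succ)
        (fun ρ => φ (Fin.cons l' ρ)) (Fin.tail ω) ≤ P * ∑ l', κ 0 l l' *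
        KE (fun i : Fin n => κ i.succ) (fun ρ => φ (Fin.cons l' ρ))
          (fun e : Fin n => if e ∈ S' then Fin.tail ω e else d (Fin.tail ω e)) := by
      intro l
      rw [mul_sum]
      refine sum_le_sum fun l' _ => ?_
      have := mul_le_mul_of_nonneg_left (ih (fun i : Fin n => κ i.succ) (fun e => hκ e.succ)
        (fun ρ => φ (Fin.cons l' ρ)) S' (Fin.tail ω)) (hκ 0 l l')
      calc _ ≤ _ := this
        _ = _ := by ring
    simp only [Xi]
    by_cases h0 : (0 : Fin (n + 1)) ∈ S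
    · simp only [h0, if_true]
      refine (min_le_left _ _).trans ?_
      calc _ ≤ c (ω 0) * (P * _) := mul_le_mul_of_nonneg_left (h1 (ω 0)) (hc _).le
        _ = _ := by ring
    · simp only [h0, if_false, one_mul]
      exact (min_le_right _ _).trans (h1 (d (ω 0)))

/-- the one-coordinate inequality -/
def One (c : L → ℝ) (d : L → L) (m s : ℕ) (w : L → ℝ) (κ κ' : L → L → ℝ) (ν : L → ℝ) : Prop :=
  ∀ b x : L → ℝ, (∀ l, 0 ≤ b l) → (∀ l, 0 < x l) → (∀ l, b l ≤ b (d l)) →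
    (∀ l, x l ≤ x (d l)) →
    ∑ l, w l * ((∑ l', κ' l l' * b l') ^ (m + s) /
      min (c l * ∑ l', κ l l' * x l') (∑ l', κ (d l) l' * x l') ^ s) ≤
    ∑ l, ν l * (b l ^ (m + s) / x l ^ s)

theorem tens_fin {c : L → ℝ} {d : L → L} {m s : ℕ} (hc : ∀ l, 0 < c l) : ∀ (n : ℕ)
    (w : Fin n → L → ℝ) (κ κ' : Fin n → L → L → ℝ) (ν : Fin n → L → ℝ)
    (_ : ∀ e l, 0 ≤ w e l) (_ : ∀ e l, 0 ≤ ν e l)
    (_ : ∀ e l l', 0 ≤ κ e l l') (_ : ∀ e l, ∑ l', κ e l l' = 1)
    (_ : ∀ e l l', 0 ≤ κ' e l l')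
    (_ : ∀ e, One c d m s (w e) (κ e) (κ' e) (ν e))
    (φ : (Fin n → L) → ℝ) (_ : ∀ ω, 0 < φ ω)
    (_ : ∀ ω e, φ ω ≤ φ (Function.update ω e (d (ω e)))),
    EX w (fun ω => KE κ' φ ω ^ (m + s) / Xi c d n κ φ ω ^ s) ≤ EX ν (fun ω => φ ω ^ m) := by
  intro n
  induction n with
  | zero =>
    intro w κ κ' ν _ _ _ _ _ _ φ hφ _
    have h1 : ∀ ω, KE κ' φ ω = φ ω := by
      intro ω
      unfold KE EX
      rw [Fintype.sum_unique]
      simp only [Finset.univ_eq_empty, Finset.prod_empty, one_mul]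
      congr 1
      exact Subsingleton.elim _ _
    unfold EX
    simp only [Finset.univ_eq_empty, Finset.prod_empty, one_mul]
    refine sum_le_sum fun ω _ => ?_
    rw [h1, Xi, pow_add, mul_div_assoc, div_self (pow_pos (hφ ω) s).ne', mul_one]
  | succ n ih =>
    intro w κ κ' ν hw hν hκ hκ1 hκ' hone φ hφ hmono
    have hsec : ∀ (l : L) (ρ : Fin n → L), φ (Fin.cons l ρ) ≤ φ (Fin.cons (d l) ρ) := by
      intro l ρ
      have := hmono (Fin.cons l ρ) 0
      rwa [Fin.cons_zero, Fin.update_cons_zero] at this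
    rw [EX_cons, EX_cons (w := ν)]
    have key : ∀ ρ : Fin n → L, ∑ l, w 0 l * (KE κ' φ (Fin.cons l ρ) ^ (m + s) /
        Xi c d (n + 1) κ φ (Fin.cons l ρ) ^ s) ≤ ∑ l, ν 0 l *
        (KE (fun i : Fin n => κ' i.succ) (fun τ => φ (Fin.cons l τ)) ρ ^ (m + s) /
          Xi c d n (fun i : Fin n => κ i.succ) (fun τ => φ (Fin.cons l τ)) ρ ^ s) := by
      intro ρ
      have := hone 0 (fun l => KE (fun i : Fin n => κ' i.succ) (fun τ => φ (Fin.cons l τ)) ρ)
        (fun l => Xi c d n (fun i : Fin n => κ i.succ) (fun τ => φ (Fin.cons l τ)) ρ)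
        (fun l => KE_nonneg (fun e => hκ' e.succ) (fun τ => (hφ _).le) ρ)
        (fun l => Xi_pos hc n _ (fun e => hκ e.succ) (fun e => hκ1 e.succ) _
          (fun τ => hφ _) ρ)
        (fun l => KE_mono (fun e => hκ' e.succ) (fun τ => hsec l τ) ρ)
        (fun l => Xi_mono hc n _ (fun e => hκ e.succ) _ _ (fun τ => hsec l τ) ρ)
      refine le_trans (le_of_eq ?_) this
      refine sum_congr rfl fun l _ => ?_
      rw [KE_cons]
      simp only [Xi, Fin.cons_zero, Fin.tail_cons]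
    calc ∑ l, w 0 l * EX (fun i : Fin n => w i.succ) (fun ρ =>
          KE κ' φ (Fin.cons l ρ) ^ (m + s) / Xi c d (n + 1) κ φ (Fin.cons l ρ) ^ s)
        = EX (fun i : Fin n => w i.succ) (fun ρ => ∑ l, w 0 l *
          (KE κ' φ (Fin.cons l ρ) ^ (m + s) / Xi c d (n + 1) κ φ (Fin.cons l ρ) ^ s)) := by
          rw [EX_sum]
          refine sum_congr rfl fun l _ => ?_
          rw [EX_mul]
      _ ≤ EX (fun i : Fin n => w i.succ) (fun ρ => ∑ l, ν 0 l *
          (KE (fun i : Fin n => κ' i.succ) (fun τ => φ (Fin.cons l τ)) ρ ^ (m + s) /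
          Xi c d n (fun i : Fin n => κ i.succ) (fun τ => φ (Fin.cons l τ)) ρ ^ s)) :=
          EX_mono (fun e => hw e.succ) key
      _ = ∑ l, ν 0 l * EX (fun i : Fin n => w i.succ) (fun ρ =>
          KE (fun i : Fin n => κ' i.succ) (fun τ => φ (Fin.cons l τ)) ρ ^ (m + s) /
          Xi c d n (fun i : Fin n => κ i.succ) (fun τ => φ (Fin.cons l τ)) ρ ^ s) := by
          rw [EX_sum]
          refine sum_congr rfl fun l _ => ?_
          rw [EX_mul]
      _ ≤ ∑ l, ν 0 l * EX (fun i : Fin n => ν i.succ) (fun ρ => φ (Fin.cons l ρ) ^ m) := by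
          refine sum_le_sum fun l _ => mul_le_mul_of_nonneg_left ?_ (hν 0 l)
          refine ih _ _ _ _ (fun e => hw e.succ) (fun e => hν e.succ) (fun e => hκ e.succ)
            (fun e => hκ1 e.succ) (fun e => hκ' e.succ) (fun e => hone e.succ) _
            (fun τ => hφ _) ?_
          intro ρ e
          have := hmono (Fin.cons l ρ) e.succ
          rwa [Fin.cons_succ, ← Fin.cons_update] at this

end Tens

section Gen

variable {E L : Type*} [Fintype E] [DecidableEq E] [Fintype L] [DecidableEq L]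

/-- the tensorised inequality over any finite set of coordinates -/
theorem tens {c : L → ℝ} {d : L → L} {m s : ℕ} (hc : ∀ l, 0 < c l)
    (w : E → L → ℝ) (κ κ' : E → L → L → ℝ) (ν : E → L → ℝ)
    (hw : ∀ e l, 0 ≤ w e l) (hν : ∀ e l, 0 ≤ ν e l)
    (hκ : ∀ e l l', 0 ≤ κ e l l') (hκ1 : ∀ e l, ∑ l', κ e l l' = 1)
    (hκ' : ∀ e l l', 0 ≤ κ' e l l')
    (hone : ∀ e, One c d m s (w e) (κ e) (κ' e) (ν e))
    (φ : (E → L) → ℝ) (hφ : ∀ ω, 0 < φ ω)
    (hmono : ∀ ω e, φ ω ≤ φ (Function.update ω e (d (ω e)))) :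
    ∃ Ξ : (E → L) → ℝ, (∀ ω, 0 < Ξ ω) ∧
      (∀ (S : Finset E) (ω : E → L), Ξ ω ≤ (∏ e, if e ∈ S then c (ω e) else 1) *
        KE κ φ (fun e => if e ∈ S then ω e else d (ω e))) ∧
      EX w (fun ω => KE κ' φ ω ^ (m + s) / Ξ ω ^ s) ≤ EX ν (fun ω => φ ω ^ m) := by
  classical
  set σ : E ≃ Fin (Fintype.card E) := Fintype.equivFin E with hσ
  set φ' : (Fin (Fintype.card E) → L) → ℝ := fun τ => φ (τ ∘ σ) with hφ'
  have hback : ∀ ω : E → L, (ω ∘ σ.symm) ∘ σ = ω := fun ω => by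
    funext e; simp
  refine ⟨fun ω => Xi c d _ (fun i => κ (σ.symm i)) φ' (ω ∘ σ.symm), fun ω =>
    Xi_pos hc _ _ (fun i => hκ _) (fun i => hκ1 _) _ (fun τ => hφ _) _, ?_, ?_⟩
  · intro S ω
    refine (Xi_le hc _ _ (fun i => hκ _) φ' (univ.filter fun i => σ.symm i ∈ S)
      (ω ∘ σ.symm)).trans (le_of_eq ?_)
    rw [KE_reindex σ κ φ]
    congr 1
    · rw [← Equiv.prod_comp σ]
      refine prod_congr rfl fun e _ => ?_
      simp
    · congr 1
      funext i
      simp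
  · rw [EX_reindex σ w, EX_reindex σ ν]
    have := tens_fin (m := m) (s := s) (d := d) hc _ (fun i => w (σ.symm i))
      (fun i => κ (σ.symm i)) (fun i => κ' (σ.symm i)) (fun i => ν (σ.symm i))
      (fun i => hw _) (fun i => hν _) (fun i => hκ _) (fun i => hκ1 _) (fun i => hκ' _)
      (fun i => hone _) φ' (fun τ => hφ _) ?_
    · refine le_trans (le_of_eq ?_) this
      congr 1
      funext τ
      have h1 : (τ ∘ σ) ∘ σ.symm = τ := by funext i; simp
      rw [KE_reindex σ κ' φ, h1]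
      show _ / Xi c d (Fintype.card E) (fun i => κ (σ.symm i)) φ' ((τ ∘ σ) ∘ σ.symm) ^ s = _
      rw [h1]
    · intro τ i
      have := hmono (τ ∘ σ) (σ.symm i)
      simp only [Function.comp, Equiv.apply_symm_apply] at this
      refine this.trans (le_of_eq ?_)
      show φ _ = φ _
      congr 1
      funext e
      by_cases he : e = σ.symm i
      · subst he
        simp
      · rw [Function.update_of_ne he]
        have : σ e ≠ i := fun h => he (by rw [← h]; simp)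
        simp [Function.update_of_ne this]

/-- Markov form for positive `φ` -/
theorem tens_markov_pos {c : L → ℝ} {d : L → L} {m s : ℕ} (hc : ∀ l, 0 < c l)
    (w : E → L → ℝ) (κ κ' : E → L → L → ℝ) (ν : E → L → ℝ)
    (hw : ∀ e l, 0 ≤ w e l) (hν : ∀ e l, 0 ≤ ν e l)
    (hκ : ∀ e l l', 0 ≤ κ e l l') (hκ1 : ∀ e l, ∑ l', κ e l l' = 1)
    (hκ' : ∀ e l l', 0 ≤ κ' e l l')
    (hone : ∀ e, One c d m s (w e) (κ e) (κ' e) (ν e))
    (φ : (E → L) → ℝ) (hφ : ∀ ω, 0 < φ ω)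
    (hmono : ∀ ω e, φ ω ≤ φ (Function.update ω e (d (ω e))))
    (P : (E → L) → Prop) [DecidablePred P] {α β : ℝ} (hα : 0 < α) (hβ : 0 ≤ β)
    (hP : ∀ ω, P ω → β ≤ KE κ' φ ω ∧ ∃ S : Finset E, (∏ e, if e ∈ S then c (ω e) else 1) *
      KE κ φ (fun e => if e ∈ S then ω e else d (ω e)) ≤ α) :
    β ^ (m + s) * EX w (fun ω => if P ω then 1 else 0) ≤ α ^ s * EX ν (fun ω => φ ω ^ m) := by
  obtain ⟨Ξ, h0, h1, h2⟩ := tens (m := m) (s := s) hc w κ κ' ν hw hν hκ hκ1 hκ' hone φ hφ hmono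
  have h3 : ∀ ω, (β ^ (m + s) / α ^ s) * (if P ω then (1 : ℝ) else 0) ≤
      KE κ' φ ω ^ (m + s) / Ξ ω ^ s := by
    intro ω
    by_cases h : P ω
    · obtain ⟨hb, S, hS⟩ := hP ω h
      rw [if_pos h, mul_one]
      exact div_le_div₀ (pow_nonneg (hβ.trans hb) _) (pow_le_pow_left₀ hβ hb _)
        (pow_pos (h0 ω) s) (pow_le_pow_left₀ (h0 ω).le ((h1 S ω).trans hS) s)
    · rw [if_neg h, mul_zero]
      exact div_nonneg (pow_nonneg (KE_nonneg hκ' (fun τ => (hφ τ).le) ω) _)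
        (pow_nonneg (h0 ω).le _)
  have h4 := (EX_mono hw h3).trans h2
  rw [EX_mul, div_mul_eq_mul_div, div_le_iff₀ (pow_pos hα s)] at h4
  linarith [h4]

/-- Markov form: `β ≤` the average after `κ'`, and some deletion has average `≤ α` after `κ` -/
theorem tens_markov {c : L → ℝ} {d : L → L} {m s : ℕ} (hc : ∀ l, 0 < c l)
    (w : E → L → ℝ) (κ κ' : E → L → L → ℝ) (ν : E → L → ℝ)
    (hw : ∀ e l, 0 ≤ w e l) (hν : ∀ e l, 0 ≤ ν e l)
    (hκ : ∀ e l l', 0 ≤ κ e l l') (hκ1 : ∀ e l, ∑ l', κ e l l' = 1)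
    (hκ' : ∀ e l l', 0 ≤ κ' e l l') (hκ1' : ∀ e l, ∑ l', κ' e l l' = 1)
    (hone : ∀ e, One c d m s (w e) (κ e) (κ' e) (ν e))
    (φ : (E → L) → ℝ) (hφ : ∀ ω, 0 ≤ φ ω)
    (hmono : ∀ ω e, φ ω ≤ φ (Function.update ω e (d (ω e))))
    (P : (E → L) → Prop) [DecidablePred P] {α β : ℝ} (hα : 0 ≤ α) (hβ : 0 ≤ β)
    (hP : ∀ ω, P ω → β ≤ KE κ' φ ω ∧ ∃ S : Finset E, (∏ e, if e ∈ S then c (ω e) else 1) *
      KE κ φ (fun e => if e ∈ S then ω e else d (ω e)) ≤ α) :
    β ^ (m + s) * EX w (fun ω => if P ω then 1 else 0) ≤ α ^ s * EX ν (fun ω => φ ω ^ m) := by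
  classical
  -- a bound for all the costs
  obtain ⟨Λ, hΛ0, hΛ⟩ : ∃ Λ : ℝ, 0 ≤ Λ ∧ ∀ (S : Finset E) (ω : E → L),
      (∏ e, if e ∈ S then c (ω e) else 1) ≤ Λ := by
    refine ⟨∑ S : Finset E, ∑ ω : E → L, ∏ e, if e ∈ S then c (ω e) else 1,
      sum_nonneg fun S _ => sum_nonneg fun ω _ => prod_nonneg fun e _ => ?_, fun S ω => ?_⟩
    · split_ifs
      · exact (hc _).le
      · exact zero_le_one
    · have hnn : ∀ (S : Finset E) (ω : E → L), 0 ≤ ∏ e, if e ∈ S then c (ω e) else (1 : ℝ) := by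
        intro S ω
        refine prod_nonneg fun e _ => ?_
        split_ifs
        · exact (hc _).le
        · exact zero_le_one
      refine le_trans ?_ (single_le_sum (f := fun S : Finset E => ∑ ω : E → L,
        ∏ e, if e ∈ S then c (ω e) else (1 : ℝ))
        (fun S _ => sum_nonneg fun ω _ => hnn S ω) (mem_univ S))
      exact single_le_sum (f := fun ω : E → L => ∏ e, if e ∈ S then c (ω e) else (1 : ℝ))
        (fun ω _ => hnn S ω) (mem_univ ω)
  have hmain : ∀ t : ℝ, 0 < t → β ^ (m + s) * EX w (fun ω => if P ω then (1 : ℝ) else 0) ≤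
      (α + (Λ + 1) * t) ^ s * EX ν (fun ω => (φ ω + t) ^ m) := by
    intro t ht
    refine tens_markov_pos hc w κ κ' ν hw hν hκ hκ1 hκ' hone (fun ω => φ ω + t)
      (fun ω => by have := hφ ω; linarith) (fun ω e => by have := hmono ω e; linarith) P
      (by positivity) hβ ?_
    intro ω hω
    obtain ⟨hb, S, hS⟩ := hP ω hω
    refine ⟨?_, S, ?_⟩
    · rw [KE_add, KE_const hκ1']
      linarith
    · rw [KE_add, KE_const hκ1, mul_add]
      have := mul_le_mul_of_nonneg_right (hΛ S ω) ht.le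
      nlinarith [hS, this, ht]
  -- let `t → 0`
  have hcont : Continuous fun t : ℝ => (α + (Λ + 1) * t) ^ s * EX ν (fun ω => (φ ω + t) ^ m) := by
    unfold EX
    fun_prop
  have hlim := hcont.tendsto 0
  simp only [mul_zero, add_zero] at hlim
  refine ge_of_tendsto (hlim.mono_left (nhdsWithin_le_nhds (s := Set.Ioi 0))) ?_
  filter_upwards [self_mem_nhdsWithin] with t ht
  exact hmain t ht

end Gen

end Vale.Agent.P331.H514
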