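import Vale.Agent.P331.H514.Q2
import Vale.Agent.P331.H250.Ker

/-!
# The event form of the quenched joint removal lemma, with thinnings

Labels in `L`: `x` (the fresh set), `r` (the sample), `o` another label.  `G` is a thinning of the
sample with rate `γ`, `N` a thinning of the rest with rate `θ` respectively `θ (1 - η)`.
-/

set_option autoImplicit false
set_option linter.unusedSectionVars false

namespace Vale.Agent.P331.H514

open Finset Vale.Agent.P331.H489 Vale.Agent.P331.H250
open scoped Classical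

section Push

variable {E L C : Type*} [Fintype E] [DecidableEq E] [Fintype L] [DecidableEq L]
  [Fintype C] [DecidableEq C]

/-- point masses -/
theorem EX_dirac (f : E → C) (F : (E → C) → ℝ) :
    EX (fun e c => if f e = c then 1 else 0) F = F f := by
  unfold EX
  rw [Fintype.sum_eq_single f]
  · simp
  · intro ω hω
    obtain ⟨e, he⟩ : ∃ e, f e ≠ ω e := by
      by_contra h
      push Not at h
      exact hω (funext fun e => (h e).symm)
    rw [prod_eq_zero (mem_univ e) (by simp [he]), zero_mul]

/-- pushing labels forward by maps that depend on the coordinate -/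
theorem EX_push_dep (f : E → L → C) (w : E → L → ℝ) (F : (E → C) → ℝ) :
    EX w (fun ω => F (fun e => f e (ω e))) =
      EX (fun e c => ∑ l, w e l * (if f e l = c then 1 else 0)) F := by
  rw [← Vale.Agent.P331.H514.EX_bind w (fun e l c => if f e l = c then 1 else 0) F]
  refine congrArg (EX w) ?_
  funext ω
  exact (EX_dirac (fun e => f e (ω e)) F).symm

end Push

section Event

variable {E L : Type*} [Fintype E] [DecidableEq E] [Fintype L] [DecidableEq L]

/-- the scalar inequality with exponents `m + s` and `s` -/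
def Scal (m s : ℕ) (θ η lam : ℝ) : Prop :=
  ∀ a b : ℝ, 0 < a → a ≤ 1 → 0 ≤ b → b ≤ 1 →
    (1 - θ * (1 - η) * (1 - b)) ^ (m + s) / (1 - θ * (1 - a)) ^ s +
      η * θ * (b ^ (m + s) / min (lam * a) 1 ^ s) ≤
    1 - θ + η * θ + θ * (b ^ (m + s) / a ^ s)

/-- the homogeneous form -/
theorem Scal.hom {m s : ℕ} {θ η lam : ℝ} (h : Scal m s θ η lam) {bx bo xx xo : ℝ}
    (h1 : 0 ≤ bx) (h2 : bx ≤ bo) (h3 : 0 < xx) (h4 : xx ≤ xo) (hlam : 0 < lam) :
    ((1 - θ * (1 - η)) * bo + θ * (1 - η) * bx) ^ (m + s) / ((1 - θ) * xo + θ * xx) ^ s +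
      η * θ * (bx ^ (m + s) / min (lam * xx) xo ^ s) ≤
    (1 - θ + η * θ) * (bo ^ (m + s) / xo ^ s) + θ * (bx ^ (m + s) / xx ^ s) := by
  have hxo : 0 < xo := h3.trans_le h4
  rcases eq_or_lt_of_le (h1.trans h2) with hbo | hbo
  · -- everything vanishes or `m + s = 0`
    have hbx : bx = 0 := le_antisymm (h2.trans hbo.symm.le) h1
    rcases Nat.eq_zero_or_pos (m + s) with h0 | h0
    · have hs : s = 0 := by omega
      have hm : m = 0 := by omega
      subst hs hm
      simp only [Nat.add_zero, pow_zero, div_one]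
      linarith
    · rw [← hbo, hbx]
      simp [zero_pow h0.ne']
  · have hk := h (xx / xo) (bx / bo) (div_pos h3 hxo) ((div_le_one hxo).2 h4)
      (div_nonneg h1 hbo.le) ((div_le_one hbo).2 h2)
    have e1 : 1 - θ * (1 - η) * (1 - bx / bo) =
        ((1 - θ * (1 - η)) * bo + θ * (1 - η) * bx) / bo := by
      field_simp
      ring
    have e2 : 1 - θ * (1 - xx / xo) = ((1 - θ) * xo + θ * xx) / xo := by
      field_simp
      ring
    have e3 : min (lam * (xx / xo)) 1 = min (lam * xx) xo / xo := by
      rw [← min_div_div_right hxo.le, div_self hxo.ne', mul_div_assoc]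
    rw [e1, e2, e3] at hk
    simp only [div_pow] at hk
    have hc : 0 < bo ^ (m + s) / xo ^ s := div_pos (pow_pos hbo _) (pow_pos hxo _)
    have hk2 := mul_le_mul_of_nonneg_left hk hc.le
    have hbp : bo ^ (m + s) ≠ 0 := (pow_pos hbo _).ne'
    have hxp : xo ^ s ≠ 0 := (pow_pos hxo _).ne'
    have hxxp : xx ^ s ≠ 0 := (pow_pos h3 _).ne'
    have hminp : min (lam * xx) xo ^ s ≠ 0 :=
      (pow_pos (lt_min (mul_pos hlam h3) hxo) _).ne'
    have e4 : bo ^ (m + s) / xo ^ s *
        ((((1 - θ * (1 - η)) * bo + θ * (1 - η) * bx) ^ (m + s) / bo ^ (m + s)) /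
          (((1 - θ) * xo + θ * xx) ^ s / xo ^ s)) =
        ((1 - θ * (1 - η)) * bo + θ * (1 - η) * bx) ^ (m + s) /
          ((1 - θ) * xo + θ * xx) ^ s := by
      field_simp
    have e5 : bo ^ (m + s) / xo ^ s * (bx ^ (m + s) / bo ^ (m + s) /
        (min (lam * xx) xo ^ s / xo ^ s)) = bx ^ (m + s) / min (lam * xx) xo ^ s := by
      field_simp
    have e6 : bo ^ (m + s) / xo ^ s * (bx ^ (m + s) / bo ^ (m + s) / (xx ^ s / xo ^ s)) =
        bx ^ (m + s) / xx ^ s := by
      field_simp
    rw [← e4, ← e5, ← e6]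
    linarith [hk2]

/-- the four-label law: `none` is the pool `G` -/
noncomputable def w4 (r : L) (w : E → L → ℝ) (γ : ℝ) (e : E) : Option L → ℝ
  | none => w e r * γ
  | some l => if l = r then w e r * (1 - γ) else w e l

/-- the kernel: an element of the sample goes to `x` with probability `θ`, to `o` otherwise -/
noncomputable def k4 (x r o : L) (θ : ℝ) (_ : E) (l l' : Option L) : ℝ :=
  if l = some r then (if l' = some x then θ else if l' = some o then 1 - θ else 0)
  else (if l = l' then 1 else 0)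

/-- the natural law -/
noncomputable def n4 (x r o : L) (w : E → L → ℝ) (γ θ : ℝ) (e : E) : Option L → ℝ
  | none => w e r * γ
  | some l => if l = x then w e r * (1 - γ) * θ else if l = o then
      w e o + w e r * (1 - γ) * (1 - θ) + w e x else if l = r then 0 else w e l

/-- deletion -/
noncomputable def d4 (x o : L) (l : Option L) : Option L := if l = some x then some o else l

/-- cost -/
noncomputable def c4 (x : L) (lam : ℝ) (l : Option L) : ℝ := if l = some x then lam else 1

/-- the frozen labels -/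
noncomputable def fr (x r o : L) (ω : E → L) (e : E) : L :=
  if ω e = x ∨ ω e = r ∨ ω e = o then o else ω e

/-- the frozen labels of a four-label configuration -/
noncomputable def fr4 (x r o : L) (τ : E → Option L) (e : E) : L :=
  match τ e with
  | none => o
  | some l => if l = x ∨ l = r ∨ l = o then o else l

variable {x r o : L}

theorem k4_sum_r (hxo : x ≠ o) (θ : ℝ) (e : E) (y : Option L → ℝ) :
    ∑ l', k4 x r o θ e (some r) l' * y l' = (1 - θ) * y (some o) + θ * y (some x) := by
  have h1 : ∀ l', k4 x r o θ e (some r) l' * y l' =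
      (if l' = some x then θ * y l' else 0) + (if l' = some o then (1 - θ) * y l' else 0) := by
    intro l'
    unfold k4
    rw [if_pos rfl]
    by_cases h2 : l' = some x
    · subst h2
      have : (some x : Option L) ≠ some o := fun h => hxo (Option.some.inj h)
      simp [this]
    · by_cases h3 : l' = some o
      · subst h3
        have : (some o : Option L) ≠ some x := fun h => hxo (Option.some.inj h).symm
        simp [this]
      · simp [h2, h3]
  rw [sum_congr rfl fun l' _ => h1 l', sum_add_distrib, sum_ite_eq' univ, sum_ite_eq' univ]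
  simp only [mem_univ, if_true]
  ring

theorem k4_sum_ne {l : Option L} (hl : l ≠ some r) (θ : ℝ) (e : E) (y : Option L → ℝ) :
    ∑ l', k4 x r o θ e l l' * y l' = y l := by
  unfold k4
  simp [hl]

theorem k4_nonneg {θ : ℝ} (h0 : 0 ≤ θ) (h1 : θ ≤ 1) (e : E) (l l' : Option L) :
    0 ≤ k4 x r o θ e l l' := by
  unfold k4
  split_ifs <;> linarith

theorem k4_one (hxo : x ≠ o) (θ : ℝ) (e : E) (l : Option L) :
    ∑ l', k4 x r o θ e l l' = 1 := by
  by_cases hl : l = some r
  · subst hl
    have := k4_sum_r (r := r) hxo θ e (fun _ => (1 : ℝ))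
    simp only [mul_one] at this
    rw [this]
    ring
  · have := k4_sum_ne (x := x) (o := o) hl θ e (fun _ => (1 : ℝ))
    simpa only [mul_one] using this

/-- the one-coordinate inequality -/
theorem one4 {m s : ℕ} {θ η lam γ : ℝ} (hsc : Scal m s θ η lam) (hxr : x ≠ r) (hxo : x ≠ o)
    (hro : r ≠ o) (hlam : 0 < lam) (w : E → L → ℝ) (hw : ∀ e l, 0 ≤ w e l) (hγ1 : γ ≤ 1)
    (e : E) (hrate : w e x = w e r * (1 - γ) * (η * θ)) :
    One (c4 x lam) (d4 x o) m s (w4 r w γ e) (k4 x r o θ e) (k4 x r o (θ * (1 - η)) e)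
      (n4 x r o w γ θ e) := by
  intro b y hb hy hbd hyd
  have hbx : b (some x) ≤ b (some o) := by simpa [d4] using hbd (some x)
  have hyx : y (some x) ≤ y (some o) := by simpa [d4] using hyd (some x)
  have hor : (some o : Option L) ≠ some r := fun h => hro (Option.some.inj h).symm
  have hxr' : (some x : Option L) ≠ some r := fun h => hxr (Option.some.inj h)
  have hxo' : (some x : Option L) ≠ some o := fun h => hxo (Option.some.inj h)
  set f : Option L → ℝ := fun l => w4 r w γ e l *
    ((∑ l', k4 x r o (θ * (1 - η)) e l l' * b l') ^ (m + s) /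
      min (c4 x lam l * ∑ l', k4 x r o θ e l l' * y l')
        (∑ l', k4 x r o θ e (d4 x o l) l' * y l') ^ s) with hf
  set g : Option L → ℝ := fun l => n4 x r o w γ θ e l * (b l ^ (m + s) / y l ^ s) with hg
  have hfx : f (some x) = w e x * (b (some x) ^ (m + s) /
      min (lam * y (some x)) (y (some o)) ^ s) := by
    simp only [hf]
    rw [k4_sum_ne hxr', k4_sum_ne hxr']
    have : d4 x o (some x) = some o := by simp [d4]
    rw [this, k4_sum_ne hor]
    simp [w4, hxr, c4]
  have hfr : f (some r) = w e r * (1 - γ) *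
      (((1 - θ * (1 - η)) * b (some o) + θ * (1 - η) * b (some x)) ^ (m + s) /
        ((1 - θ) * y (some o) + θ * y (some x)) ^ s) := by
    simp only [hf]
    have : d4 x o (some r) = some r := by simp [d4, hxr.symm]
    rw [this, k4_sum_r hxo, k4_sum_r hxo]
    have hc : c4 x lam (some r) = 1 := by simp [c4, hxr.symm]
    rw [hc, one_mul, min_self]
    simp [w4]
  have hfl : ∀ l, l ≠ some x → l ≠ some r → f l = w4 r w γ e l * (b l ^ (m + s) / y l ^ s) := by
    intro l h1 h2
    simp only [hf]
    have : d4 x o l = l := by simp [d4, h1]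
    rw [this, k4_sum_ne h2, k4_sum_ne h2]
    have hc : c4 x lam l = 1 := by simp [c4, h1]
    rw [hc, one_mul, min_self]
  have hsum : ∑ l, (g l - f l) = ∑ l ∈ ({some x, some r, some o} : Finset (Option L)),
      (g l - f l) := by
    symm
    refine sum_subset (subset_univ _) fun l _ hl => ?_
    simp only [mem_insert, mem_singleton, not_or] at hl
    rw [hfl l hl.1 hl.2.1]
    have : n4 x r o w γ θ e l = w4 r w γ e l := by
      rcases l with _ | l
      · rfl
      · have h1 : l ≠ x := fun h => hl.1 (by rw [h])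
        have h2 : l ≠ r := fun h => hl.2.1 (by rw [h])
        have h3 : l ≠ o := fun h => hl.2.2 (by rw [h])
        simp [n4, w4, h1, h2, h3]
    simp only [hg]
    rw [this, sub_self]
  have h3 : ∑ l ∈ ({some x, some r, some o} : Finset (Option L)), (g l - f l) =
      (g (some x) - f (some x)) + ((g (some r) - f (some r)) + (g (some o) - f (some o))) := by
    rw [sum_insert, sum_insert, sum_singleton]
    · simp [hro]
    · simp [hxr, hxo]
  have hgx : g (some x) = w e r * (1 - γ) * θ * (b (some x) ^ (m + s) / y (some x) ^ s) := by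
    simp [hg, n4]
  have hgr : g (some r) = 0 := by
    simp [hg, n4, hxr.symm, hro]
  have hgo : g (some o) = (w e o + w e r * (1 - γ) * (1 - θ) + w e x) *
      (b (some o) ^ (m + s) / y (some o) ^ s) := by
    simp [hg, n4, hxo.symm]
  have hfo : f (some o) = w e o * (b (some o) ^ (m + s) / y (some o) ^ s) := by
    rw [hfl _ hxo'.symm hor]
    simp [w4, hro.symm]
  have key := hsc.hom (hb (some x)) hbx (hy (some x)) hyx hlam
  have hρ : 0 ≤ w e r * (1 - γ) := mul_nonneg (hw e r) (by linarith)
  have key2 := mul_le_mul_of_nonneg_left key hρ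
  have hfin : 0 ≤ ∑ l, (g l - f l) := by
    rw [hsum, h3, hgx, hgr, hgo, hfx, hfr, hfo, hrate]
    nlinarith [key2]
  rw [sum_sub_distrib] at hfin
  linarith

theorem n4_nonneg {θ γ : ℝ} (h0 : 0 ≤ θ) (h1 : θ ≤ 1) (hγ0 : 0 ≤ γ) (hγ1 : γ ≤ 1)
    (w : E → L → ℝ) (hw : ∀ e l, 0 ≤ w e l) (e : E) (l : Option L) :
    0 ≤ n4 x r o w γ θ e l := by
  have hρ : 0 ≤ w e r * (1 - γ) := mul_nonneg (hw e r) (by linarith)
  rcases l with _ | l
  · exact mul_nonneg (hw e r) hγ0
  · simp only [n4]
    split_ifs
    · exact mul_nonneg hρ h0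
    · have := mul_nonneg hρ (sub_nonneg.2 h1)
      have := hw e o
      have := hw e x
      linarith
    · exact le_rfl
    · exact hw e l

theorem w4_nonneg {γ : ℝ} (hγ0 : 0 ≤ γ) (hγ1 : γ ≤ 1)
    (w : E → L → ℝ) (hw : ∀ e l, 0 ≤ w e l) (e : E) (l : Option L) :
    0 ≤ w4 r w γ e l := by
  have hρ : 0 ≤ w e r * (1 - γ) := mul_nonneg (hw e r) (by linarith)
  rcases l with _ | l
  · exact mul_nonneg (hw e r) hγ0
  · simp only [w4]
    split_ifs
    · exact hρ
    · exact hw e l

theorem n4_one {θ γ : ℝ} (hxr : x ≠ r) (hxo : x ≠ o) (hro : r ≠ o) (w : E → L → ℝ)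
    (e : E) (h1 : ∑ l, w e l = 1) : ∑ l, n4 x r o w γ θ e l = 1 := by
  rw [Fintype.sum_option]
  have h2 : ∑ l, (n4 x r o w γ θ e (some l) - w e l) =
      ∑ l ∈ ({x, r, o} : Finset L), (n4 x r o w γ θ e (some l) - w e l) := by
    symm
    refine sum_subset (subset_univ _) fun l _ hl => ?_
    simp only [mem_insert, mem_singleton, not_or] at hl
    simp [n4, hl.1, hl.2.1, hl.2.2]
  rw [sum_insert (by simp [hxr, hxo]), sum_insert (by simp [hro]), sum_singleton] at h2
  simp only [n4, if_true, if_neg hxr.symm, if_neg hro, if_neg hxo.symm] at h2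
  rw [sum_sub_distrib, h1] at h2
  have h3 : n4 x r o w γ θ e none = w e r * γ := rfl
  rw [h3]
  have h4 : ∑ l, n4 x r o w γ θ e (some l) = 1 + (w e r * (1 - γ) * θ - w e x +
      (0 - w e r + (w e o + w e r * (1 - γ) * (1 - θ) + w e x - w e o))) := by
    have h5 : ∑ l, n4 x r o w γ θ e (some l) = ∑ l, (if l = x then w e r * (1 - γ) * θ else
        if l = o then w e o + w e r * (1 - γ) * (1 - θ) + w e x else if l = r then 0
        else w e l) := rfl
    rw [h5]
    linarith [h2]
  rw [h4]
  ring

/-- the function of a four-label configuration -/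
noncomputable def φ4 (x r o : L) (ψ : (E → L) → Finset E → ℝ) (τ : E → Option L) : ℝ :=
  ψ (fr4 x r o τ) (lset (some x) τ ∪ lset none τ)

theorem φ4_mono {ψ : (E → L) → Finset E → ℝ}
    (hψ : ∀ ω A B, A ⊆ B → ψ ω B ≤ ψ ω A) (τ : E → Option L) (e : E) :
    φ4 x r o ψ τ ≤ φ4 x r o ψ (Function.update τ e (d4 x o (τ e))) := by
  by_cases h : τ e = some x
  · have hfr : fr4 x r o (Function.update τ e (d4 x o (τ e))) = fr4 x r o τ := by
      funext a
      by_cases ha : a = e
      · subst ha
        simp [fr4, d4, h]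
      · simp [fr4, Function.update_of_ne ha]
    unfold φ4
    rw [hfr]
    refine hψ _ _ _ ?_
    intro a ha
    simp only [mem_union, mem_lset] at ha ⊢
    by_cases hae : a = e
    · subst hae
      exact Or.inl h
    · rwa [Function.update_of_ne hae] at ha
  · have : d4 x o (τ e) = τ e := by simp [d4, h]
    rw [this, Function.update_eq_self]

/-- the kernel average is the average over a thinning of the sample -/
theorem KE_eq_TH (hxr : x ≠ r) (hxo : x ≠ o) (ψ : (E → L) → Finset E → ℝ) (θ : ℝ)
    (τ : E → Option L) :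
    KE (k4 x r o θ) (φ4 x r o ψ) τ = TH (fun _ => θ) (lset (some r) τ)
      (fun N => ψ (fr4 x r o τ) (lset (some x) τ ∪ lset none τ ∪ N)) := by
  set f : E → Bool → Option L := fun e b =>
    if τ e = some r then (if b then some x else some o) else τ e with hf
  have h1 : TH (fun _ => θ) (lset (some r) τ)
      (fun N => ψ (fr4 x r o τ) (lset (some x) τ ∪ lset none τ ∪ N)) =
      EX (bw (fun _ => θ) (lset (some r) τ)) (fun b => φ4 x r o ψ (fun e => f e (b e))) := by
    unfold TH
    refine EX_congr_supp fun b hb => ?_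
    have hsup : ∀ e, b e = true → τ e = some r := by
      intro e he
      by_contra hne
      apply hb e
      rw [he]
      simp [bw, mem_lset, hne]
    unfold φ4
    have hfr : fr4 x r o (fun e => f e (b e)) = fr4 x r o τ := by
      funext e
      simp only [fr4, hf]
      by_cases h : τ e = some r
      · rw [if_pos h, h]
        by_cases hbe : b e = true <;> simp [hbe]
      · rw [if_neg h]
    rw [hfr]
    refine congrArg (ψ _) (Finset.ext fun e => ?_)
    simp only [mem_union, mem_lset, mem_tset, hf]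
    by_cases h : τ e = some r
    · rw [if_pos h, h]
      have e1 : (some r : Option L) ≠ some x := fun h => hxr (Option.some.inj h).symm
      have e2 : (some o : Option L) ≠ some x := fun h => hxo (Option.some.inj h).symm
      by_cases hbe : b e = true <;> simp [hbe, e1, e2]
    · rw [if_neg h]
      constructor
      · rintro ((h2 | h2) | h2)
        · exact Or.inl h2
        · exact Or.inr h2
        · exact absurd (hsup e h2) h
      · rintro (h2 | h2)
        · exact Or.inl (Or.inl h2)
        · exact Or.inl (Or.inr h2)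
  rw [h1, EX_push_dep f]
  unfold KE
  refine EX_congr (fun e c => ?_) fun _ => rfl
  rw [Fintype.sum_bool]
  by_cases h : τ e = some r
  · have hmem : e ∈ lset (some r) τ := mem_lset.2 h
    simp only [k4, hf, h, bw, hmem, if_true]
    have e2 : (some o : Option L) ≠ some x := fun h => hxo (Option.some.inj h).symm
    by_cases h1 : c = some x
    · subst h1
      simp [e2]
    · by_cases h2 : c = some o
      · subst h2
        simp [e2, e2.symm]
      · simp [h1, h2, Ne.symm h1, Ne.symm h2]
  · have hmem : e ∉ lset (some r) τ := fun hm => h (mem_lset.1 hm)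
    simp [k4, hf, h, bw, hmem]

/-- deletions -/
theorem KE_del (hxr : x ≠ r) (hxo : x ≠ o) (hro : r ≠ o) (ψ : (E → L) → Finset E → ℝ) (θ : ℝ)
    (τ : E → Option L) (Y : Finset E) (hY : Y ⊆ lset (some x) τ) :
    KE (k4 x r o θ) (φ4 x r o ψ) (fun e => if e ∈ Y then τ e else d4 x o (τ e)) =
      TH (fun _ => θ) (lset (some r) τ)
        (fun N => ψ (fr4 x r o τ) (Y ∪ lset none τ ∪ N)) := by
  rw [KE_eq_TH hxr hxo]
  have e2 : (some o : Option L) ≠ some x := fun h => hxo (Option.some.inj h).symm
  have e3 : (some o : Option L) ≠ some r := fun h => hro (Option.some.inj h).symm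
  have hx : ∀ e, (if e ∈ Y then τ e else d4 x o (τ e)) = some x ↔ e ∈ Y := by
    intro e
    by_cases h : e ∈ Y
    · simp [h, mem_lset.1 (hY h)]
    · simp only [h, if_false, iff_false, d4]
      by_cases h2 : τ e = some x
      · simp [h2, e2]
      · simp [h2]
  have hr : ∀ e, (if e ∈ Y then τ e else d4 x o (τ e)) = some r ↔ τ e = some r := by
    intro e
    by_cases h : e ∈ Y
    · simp [h]
    · simp only [h, if_false, d4]
      by_cases h2 : τ e = some x
      · have e1 : (some x : Option L) ≠ some r := fun h => hxr (Option.some.inj h)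
        simp [h2, e3, e1]
      · simp [h2]
  have hn : ∀ e, (if e ∈ Y then τ e else d4 x o (τ e)) = none ↔ τ e = none := by
    intro e
    by_cases h : e ∈ Y
    · simp [h]
    · simp only [h, if_false, d4]
      by_cases h2 : τ e = some x
      · simp [h2]
      · simp [h2]
  have s1 : lset (some x) (fun e => if e ∈ Y then τ e else d4 x o (τ e)) = Y := by
    ext e; rw [mem_lset, hx]
  have s2 : lset (some r) (fun e => if e ∈ Y then τ e else d4 x o (τ e)) =
      lset (some r) τ := by
    ext e; rw [mem_lset, hr, mem_lset]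
  have s3 : lset none (fun e => if e ∈ Y then τ e else d4 x o (τ e)) = lset none τ := by
    ext e; rw [mem_lset, hn, mem_lset]
  have s4 : fr4 x r o (fun e => if e ∈ Y then τ e else d4 x o (τ e)) = fr4 x r o τ := by
    funext e
    simp only [fr4]
    by_cases h : e ∈ Y
    · simp [h]
    · simp only [h, if_false, d4]
      by_cases h2 : τ e = some x
      · simp [h2]
      · simp [h2]
  rw [s1, s2, s3, s4]

/-- from the sample with its pool to the four labels -/
theorem EX_four (w : E → L → ℝ) (γ : ℝ)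
    (F : (E → L) → Finset E → ℝ) (F' : (E → Option L) → ℝ)
    (hF : ∀ (ω : E → L) (G : Finset E), G ⊆ lset r ω →
      F ω G = F' (fun e => if e ∈ G then none else some (ω e))) :
    EX w (fun ω => TH (fun _ => γ) (lset r ω) (F ω)) = EX (w4 r w γ) F' := by
  let k : E → L → Bool → ℝ := fun _ l b =>
    if l = r then (if b then γ else 1 - γ) else (if b then 0 else 1)
  let g : L × Bool → Option L := fun p => if p.1 = r ∧ p.2 = true then none else some p.1
  have h1 : EX w (fun ω => TH (fun _ => γ) (lset r ω) (F ω)) =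
      EX w (fun ω => EX (fun e => k e (ω e)) (fun b => F ω (tset b))) := by
    congr 1
    funext ω
    unfold TH
    refine EX_congr (fun e b => ?_) fun _ => rfl
    simp only [bw, k, mem_lset]
  rw [h1, Vale.Agent.P331.H250.EX_bind w k (fun ω b => F ω (tset b))]
  have h2 : EX (fun e (p : L × Bool) => w e p.1 * k e p.1 p.2)
      (fun τ => F (fun e => (τ e).1) (tset fun e => (τ e).2)) =
      EX (fun e (p : L × Bool) => w e p.1 * k e p.1 p.2) (fun τ => F' (g ∘ τ)) := by
    refine EX_congr_supp fun τ hτ => ?_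
    have hsup : ∀ e, (τ e).2 = true → (τ e).1 = r := by
      intro e he
      by_contra hne
      apply hτ e
      simp [k, hne, he]
    have hsub : (tset fun e => (τ e).2) ⊆ lset r (fun e => (τ e).1) := by
      intro e he
      rw [mem_lset]
      refine hsup e ?_
      have := (mem_tset (b := fun e => (τ e).2)).1 he
      exact this
    rw [hF _ _ hsub]
    congr 1
    funext e
    simp only [mem_tset, Function.comp, g]
    by_cases h : (τ e).2 = true
    · simp [h, hsup e h]
    · simp [h]
  rw [h2, EX_push g]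
  refine EX_congr (fun e c => ?_) fun _ => rfl
  rw [sum_filter, Fintype.sum_prod_type]
  simp only [Fintype.sum_bool, g, k]
  rcases c with _ | l
  · simp only [w4]
    rw [Finset.sum_eq_single r]
    · simp
    · intro l _ hl
      simp [hl]
    · intro h; exact absurd (mem_univ r) h
  · simp only [w4]
    rw [Finset.sum_eq_single l]
    · by_cases hl : l = r
      · subst hl
        simp
      · simp [hl]
    · intro l' _ hl'
      by_cases h : l' = r
      · subst h
        simp [hl']
      · simp [h, hl']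
    · intro h; exact absurd (mem_univ l) h

/-- **the event form** -/
theorem qjrl_TH {m s : ℕ} {θ η lam γ α β : ℝ} {k : ℕ} (hsc : Scal m s θ η lam)
    (hxr : x ≠ r) (hxo : x ≠ o) (hro : r ≠ o) (hlam : 1 ≤ lam)
    (hθ0 : 0 ≤ θ) (hθ1 : θ ≤ 1) (hη0 : 0 ≤ η) (hη1 : η ≤ 1) (hγ0 : 0 ≤ γ) (hγ1 : γ ≤ 1)
    (w : E → L → ℝ) (hw : ∀ e l, 0 ≤ w e l) (hw1 : ∀ e, ∑ l, w e l = 1)
    (hrate : ∀ e, w e x = w e r * (1 - γ) * (η * θ))
    (ψ : (E → L) → Finset E → ℝ) (hψ0 : ∀ ω A, 0 ≤ ψ ω A) (hψ1 : ∀ ω A, ψ ω A ≤ 1)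
    (hψ : ∀ ω A B, A ⊆ B → ψ ω B ≤ ψ ω A)
    (hα : 0 ≤ α) (hβ : 0 ≤ β) :
    β ^ (m + s) * EX w (fun ω => TH (fun _ => γ) (lset r ω) (fun G =>
      if (∃ Y : Finset E, Y ⊆ lset x ω ∧ Y.card ≤ k ∧
          TH (fun _ => θ) (lset r ω \ G) (fun N => ψ (fr x r o ω) (Y ∪ G ∪ N)) ≤ α) ∧
        β ≤ TH (fun _ => θ * (1 - η)) (lset r ω \ G)
          (fun N => ψ (fr x r o ω) (lset x ω ∪ G ∪ N)) then 1 else 0)) ≤
      (lam ^ k * α) ^ s := by
  set P : (E → Option L) → Prop := fun τ =>
    (∃ Y : Finset E, Y ⊆ lset (some x) τ ∧ Y.card ≤ k ∧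
      TH (fun _ => θ) (lset (some r) τ)
        (fun N => ψ (fr4 x r o τ) (Y ∪ lset none τ ∪ N)) ≤ α) ∧
    β ≤ TH (fun _ => θ * (1 - η)) (lset (some r) τ)
      (fun N => ψ (fr4 x r o τ) (lset (some x) τ ∪ lset none τ ∪ N)) with hP
  have h1 : EX w (fun ω => TH (fun _ => γ) (lset r ω) (fun G =>
      if (∃ Y : Finset E, Y ⊆ lset x ω ∧ Y.card ≤ k ∧
          TH (fun _ => θ) (lset r ω \ G) (fun N => ψ (fr x r o ω) (Y ∪ G ∪ N)) ≤ α) ∧
        β ≤ TH (fun _ => θ * (1 - η)) (lset r ω \ G)
          (fun N => ψ (fr x r o ω) (lset x ω ∪ G ∪ N)) then (1 : ℝ) else 0)) =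
      EX (w4 r w γ) (fun τ => if P τ then 1 else 0) := by
    refine EX_four w γ _ _ fun ω G hG => ?_
    have s1 : lset (some x) (fun e => if e ∈ G then none else some (ω e)) = lset x ω := by
      ext e
      rw [mem_lset, mem_lset]
      by_cases h : e ∈ G
      · have := mem_lset.1 (hG h)
        simp [h, this, hxr.symm]
      · simp [h]
    have s2 : lset (some r) (fun e => if e ∈ G then none else some (ω e)) = lset r ω \ G := by
      ext e
      rw [mem_lset, mem_sdiff, mem_lset]
      by_cases h : e ∈ G <;> simp [h]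
    have s3 : lset none (fun e => if e ∈ G then none else some (ω e)) = G := by
      ext e
      rw [mem_lset]
      by_cases h : e ∈ G <;> simp [h]
    have s4 : fr4 x r o (fun e => if e ∈ G then none else some (ω e)) = fr x r o ω := by
      funext e
      simp only [fr4, fr]
      by_cases h : e ∈ G
      · have := mem_lset.1 (hG h)
        simp [h, this]
      · simp [h]
    simp only [hP]
    rw [s1, s2, s3, s4]
  rw [h1]
  have hlam0 : 0 < lam := by linarith
  have hθ' : 0 ≤ θ * (1 - η) := mul_nonneg hθ0 (by linarith)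
  have hθ'1 : θ * (1 - η) ≤ 1 := by nlinarith
  have h2 := tens_markov (c := c4 x lam) (d := d4 x o) (m := m) (s := s)
    (fun l => by unfold c4; split_ifs <;> linarith)
    (w4 r w γ) (fun e => k4 x r o θ e) (fun e => k4 x r o (θ * (1 - η)) e) (n4 x r o w γ θ)
    (w4_nonneg hγ0 hγ1 w hw) (n4_nonneg hθ0 hθ1 hγ0 hγ1 w hw)
    (fun e l l' => k4_nonneg hθ0 hθ1 e l l') (fun e l => k4_one hxo θ e l)
    (fun e l l' => k4_nonneg hθ' hθ'1 e l l') (fun e l => k4_one hxo _ e l)
    (fun e => one4 hsc hxr hxo hro hlam0 w hw hγ1 e (hrate e))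
    (φ4 x r o ψ) (fun τ => hψ0 _ _) (fun τ e => φ4_mono hψ τ e)
    P (α := lam ^ k * α) (β := β) (mul_nonneg (pow_nonneg hlam0.le _) hα) hβ ?_
  · refine h2.trans ?_
    have h3 : EX (n4 x r o w γ θ) (fun τ => φ4 x r o ψ τ ^ m) ≤ 1 := by
      have h4 : EX (n4 x r o w γ θ) (fun τ => φ4 x r o ψ τ ^ m) ≤
          EX (n4 x r o w γ θ) (fun _ => 1) :=
        EX_mono (n4_nonneg hθ0 hθ1 hγ0 hγ1 w hw) fun τ => pow_le_one₀ (hψ0 _ _) (hψ1 _ _)
      rwa [EX_one _ (fun e => n4_one hxr hxo hro w e (hw1 e))] at h4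
    have h5 : 0 ≤ (lam ^ k * α) ^ s := pow_nonneg (mul_nonneg (pow_nonneg hlam0.le _) hα) _
    nlinarith [h3, h5]
  · intro τ hτ
    obtain ⟨⟨Y, hY, hYk, hYα⟩, hb⟩ := hτ
    refine ⟨?_, Y, ?_⟩
    · rw [KE_eq_TH hxr hxo]
      exact hb
    · rw [KE_del hxr hxo hro ψ θ τ Y hY]
      have hcost : (∏ e, if e ∈ Y then c4 x lam (τ e) else 1) = lam ^ Y.card := by
        rw [Finset.prod_ite_mem, univ_inter, ← Finset.prod_const]
        refine prod_congr rfl fun e he => ?_
        simp [c4, mem_lset.1 (hY he)]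
      rw [hcost]
      have hTH : 0 ≤ TH (fun _ => θ) (lset (some r) τ)
          (fun N => ψ (fr4 x r o τ) (Y ∪ lset none τ ∪ N)) :=
        TH_nonneg (fun _ => hθ0) (fun _ => hθ1) _ fun G _ => hψ0 _ _
      exact mul_le_mul (pow_le_pow_right₀ hlam hYk) hYα hTH (pow_nonneg hlam0.le _)

end Event

end Vale.Agent.P331.H514
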