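import Vale.Agent.P331.H514.QE
import Vale.Agent.P331.F.Rows

/-!
# Row A2
-/

set_option autoImplicit false
set_option linter.unusedSectionVars false

namespace Vale.Agent.P331.H514

open Finset Vale.Agent.P331.H489 Vale.Agent.P331.H250 Vale.Agent.P331.F
open scoped Classical

theorem scal_of_oneC {θ η lam : ℝ} (hlam : 0 < lam) (h : OneC θ η lam) :
    Scal 9 7 θ η lam := by
  intro a b ha ha1 hb hb1
  have := h b a hb hb1 ha ha1
  have hla : 0 < lam * a := mul_pos hlam ha
  have hmin : b ^ (9 + 7) / min (lam * a) 1 ^ 7 = b ^ 16 * max 1 (1 / (lam * a) ^ 7) := by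
    rcases le_total (lam * a) 1 with h1 | h1
    · rw [min_eq_left h1, max_eq_right]
      · rw [mul_one_div]
      · rw [one_le_div (pow_pos hla 7)]
        exact pow_le_one₀ hla.le h1
    · rw [min_eq_right h1, max_eq_left]
      · simp
      · rw [div_le_one (pow_pos hla 7)]
        exact one_le_pow₀ h1
  rw [hmin]
  have e1 : η * θ * b ^ 16 * max 1 (1 / (lam * a) ^ 7) =
      η * θ * (b ^ 16 * max 1 (1 / (lam * a) ^ 7)) := mul_assoc _ _ _
  have e2 : θ * b ^ 16 / a ^ 7 = θ * (b ^ 16 / a ^ 7) := mul_div_assoc _ _ _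
  rw [e1, e2] at this
  exact this

/-- a pool of rate zero -/
theorem TH_zero {E : Type*} [Fintype E] [DecidableEq E] (S : Finset E) (f : Finset E → ℝ) :
    TH (fun _ => (0 : ℝ)) S f = f ∅ := by
  rw [TH_eq_sum]
  rw [Finset.sum_eq_single ∅]
  · simp
  · intro G _ hG
    obtain ⟨e, he⟩ := Finset.nonempty_iff_ne_empty.2 hG
    rw [prod_eq_zero he rfl, zero_mul, zero_mul]
  · intro h
    exact absurd (Finset.empty_mem_powerset S) h

theorem ite_one_le_ite_one {P Q : Prop} [Decidable P] [Decidable Q] (h : P → Q) :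
    (if P then (1 : ℝ) else 0) ≤ if Q then 1 else 0 := by
  by_cases hP : P
  · rw [if_pos hP, if_pos (h hP)]
  · rw [if_neg hP]
    split_ifs <;> simp

theorem rowA2 : RowA2 := by
  intro θ η lam hθ hθ1 hη hη1 hlam hone E _ D hD U v ρ hρ hv hvρ κ δ a hδ ha
  have hsc : Scal 9 7 θ η lam := scal_of_oneC (by linarith) hone
  have hv0 : 0 < v := by rw [hv]; positivity
  have hv1 : v < 1 := by linarith
  -- the law of the labels
  set w : E → Option Bool → ℝ := bw2 (fun _ => v) (fun _ => ρ) U with hw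
  have hw0 : ∀ e l, 0 ≤ w e l := by
    intro e l
    simp only [hw, bw2]
    split_ifs <;> linarith
  have hw1 : ∀ e, ∑ l, w e l = 1 := by
    intro e
    rw [Fintype.sum_option, Fintype.sum_bool]
    simp only [hw, bw2]
    by_cases he : e ∈ U
    · simp [he]
    · simp [he]
  have hrate : ∀ e, w e (some true) = w e (some false) * (1 - 0) * (η * θ) := by
    intro e
    simp only [hw, bw2]
    by_cases he : e ∈ U
    · simp only [he, if_true]
      rw [hv]
      have : (some false : Option Bool) ≠ some true := by simp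
      simp [this]
      ring
    · simp [he]
  have h := qjrl_TH (E := E) (L := Option Bool) (x := some true) (r := some false) (o := none)
    (γ := 0) (α := δ) (β := a) (k := κ) hsc (by simp) (by simp) (by simp) hlam
    hθ.le (by linarith) hη.le (by linarith) le_rfl zero_le_one w hw0 hw1 hrate
    (fun _ A => F.ind (¬ D A)) (fun _ A => by unfold F.ind; split_ifs <;> simp)
    (fun _ A => by unfold F.ind; split_ifs <;> simp)
    (fun _ A B hAB => by
      unfold F.ind
      by_cases hA : D A
      · simp [hA, hD A B hAB hA]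
      · simp only [hA, not_false_eq_true, if_true]
        split_ifs <;> simp) hδ ha.le
  simp only [TH_zero, sdiff_empty, union_empty] at h
  -- the left side of `QJ`
  have hlhs : Th v U (fun X => Th (ρ / (1 - v)) (U \ X) (fun R => F.ind
      ((∃ Y ⊆ X, Y.card ≤ κ ∧ Th θ R (fun N => F.ind (¬ D (Y ∪ N))) ≤ δ) ∧
        a < Th (θ * (1 - η)) R (fun N => F.ind (¬ D (X ∪ N)))))) =
      EX w (fun ω => F.ind
      ((∃ Y ⊆ lset (some true) ω, Y.card ≤ κ ∧
        Th θ (lset (some false) ω) (fun N => F.ind (¬ D (Y ∪ N))) ≤ δ) ∧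
        a < Th (θ * (1 - η)) (lset (some false) ω)
          (fun N => F.ind (¬ D (lset (some true) ω ∪ N))))) := by
    unfold Th
    rw [TH_TH, T2]
    refine EX_congr (fun e l => ?_) fun _ => rfl
    have h1v : (1 - v) ≠ 0 := by linarith
    have : (1 - v) * (ρ / (1 - v)) = ρ := mul_div_cancel₀ _ h1v
    simp only [hw, this]
  rw [hlhs, le_div_iff₀ (pow_pos ha 16), mul_comm]
  refine le_trans (mul_le_mul_of_nonneg_left (EX_mono hw0 fun ω => ?_) (pow_nonneg ha.le _)) h
  unfold F.ind Th
  refine @ite_one_le_ite_one _ _ (_) (_) fun hP => ?_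
  obtain ⟨⟨Y, hY, hk, hα⟩, hb⟩ := hP
  exact ⟨⟨Y, hY, hk, hα⟩, hb.le⟩

end Vale.Agent.P331.H514
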